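import Mathlib
import Vale.Agent.Lib.P266.Main

namespace Vale.Agent.Results.P266.A_graded_poly

/-- Let `k` be a field of characteristic zero and `A` an integrally closed domain with a grading
by the natural numbers over `k`, whose degree zero part is an arbitrary local ring, and which
is of finite type over its degree zero part. If the module of `k`-derivations of `A` is
projective over `A`, then `A` is a polynomial ring over its degree zero part, on finitely many
homogeneous generators of positive degrees. -/
theorem result {k A : Type*} [Field k] [CharZero k] [CommRing A] [IsDomain A]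
    [IsIntegrallyClosed A] [Algebra k A] (𝒜 : ℕ → Submodule k A) [GradedAlgebra 𝒜]
    [IsLocalRing (𝒜 0)] [Algebra.FiniteType (𝒜 0) A]
    [Module.Projective A (Derivation k A A)] :
    ∃ (r : ℕ) (f : Fin r → A) (n : Fin r → ℕ), (∀ j, 0 < n j ∧ f j ∈ 𝒜 (n j)) ∧
      AlgebraicIndependent (𝒜 0) f ∧ Algebra.adjoin (𝒜 0) (Set.range f) = ⊤ :=
  Vale.Agent.Lib.P266.graded_polynomial 𝒜

end Vale.Agent.Results.P266.A_graded_poly
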