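import Mathlib
import Vale.Agent.Lib.P266.Reduction

namespace Vale.Agent.Results.P266.B_graded_regular

/-- Let `k` be a field of characteristic zero and `A` an integrally closed domain with a grading
by the natural numbers over `k`, of finite type over its degree zero part, such that the module of
`k`-derivations of `A` is projective over `A`. Then:
(1) for every maximal ideal `𝔪` of the degree zero part there are finitely many homogeneous
elements of positive degrees, algebraically independent over the degree zero part, and an element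
`s` of the degree zero part outside `𝔪`, such that after inverting `s` they generate `A` over the
degree zero part;
(2) if the degree zero part is a regular ring, so is `A`;
(3) if `A` is Noetherian and the degree zero part has dimension at most one, `A` is a regular ring;
(4) if the degree zero part is local, `A` is a polynomial ring over it on homogeneous elements of
positive degrees and the derivation module of the degree zero part is projective over it. -/
theorem result {k A : Type*} [Field k] [CharZero k] [CommRing A] [IsDomain A]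
    [IsIntegrallyClosed A] [Algebra k A] (𝒜 : ℕ → Submodule k A) [GradedAlgebra 𝒜]
    [Algebra.FiniteType (𝒜 0) A] [Module.Projective A (Derivation k A A)] :
    (∀ 𝔪 : Ideal (𝒜 0), 𝔪.IsMaximal → ∃ (r : ℕ) (f : Fin r → A) (n : Fin r → ℕ),
      (∀ j, 0 < n j ∧ f j ∈ 𝒜 (n j)) ∧ AlgebraicIndependent (𝒜 0) f ∧
      ∃ s : 𝒜 0, s ∉ 𝔪 ∧ ∀ a : A, ∃ N : ℕ, (s : A) ^ N * a ∈ Algebra.adjoin (𝒜 0) (Set.range f)) ∧
    (IsRegularRing (𝒜 0) → IsRegularRing A) ∧
    (IsNoetherianRing A → Ring.DimensionLEOne (𝒜 0) → IsRegularRing A) ∧
    (IsLocalRing (𝒜 0) → Module.Projective (𝒜 0) (Derivation k (𝒜 0) (𝒜 0)) ∧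
      ∃ (r : ℕ) (f : Fin r → A) (n : Fin r → ℕ), (∀ j, 0 < n j ∧ f j ∈ 𝒜 (n j)) ∧
        AlgebraicIndependent (𝒜 0) f ∧ Algebra.adjoin (𝒜 0) (Set.range f) = ⊤) := by
  refine ⟨fun 𝔪 h𝔪 => ?_, fun h => ?_, fun h1 h2 => ?_, fun h => ?_⟩
  · haveI := h𝔪
    exact Vale.Agent.Lib.P266.graded_global 𝒜 𝔪
  · haveI := h
    exact Vale.Agent.Lib.P266.regular_of_graded 𝒜
  · haveI := h1
    haveI := h2
    exact Vale.Agent.Lib.P266.regular_of_dim_le_one 𝒜
  · haveI := h
    obtain ⟨r, f, n, hf, hind, hgen⟩ := Vale.Agent.Lib.P266.graded_polynomial 𝒜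
    exact ⟨Vale.Agent.Lib.P266.projective_zero_of_polynomial 𝒜 f hind hgen, r, f, n, hf, hind, hgen⟩

end Vale.Agent.Results.P266.B_graded_regular
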